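import Mathlib
import Vale.Agent.Lib.P028.Rogers
open MeasureTheory Set Filter

namespace Vale.Agent.Results.P028.BlockUnion

/-- Single-scale union bound for arbitrary shifts.  Let `B` be a finite set of positive divisors of
`L`, and let `0 ≤ ψ q ≤ q / (2 L)` on `B`.  Then for every choice of real shifts `γ q` the set of
`x ∈ (0, 1]` such that `|q x - a - γ q| < ψ q` for some `q ∈ B` and some integer `a` has Lebesgue
measure at least `2 ∑_{q ∈ B} φ(q) ψ(q) / q`. -/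
theorem result (B : Finset ℕ) (L : ℕ) (hL : 0 < L) (ψ γ : ℕ → ℝ)
    (hB : ∀ q ∈ B, 0 < q ∧ q ∣ L ∧ 0 ≤ ψ q ∧ ψ q * (2 * L) ≤ q) :
    ENNReal.ofReal (2 * ∑ q ∈ B, (Nat.totient q : ℝ) * ψ q / q) ≤
      volume {x : ℝ | x ∈ Ioc (0 : ℝ) 1 ∧ ∃ q ∈ B, ∃ a : ℤ, |(q : ℝ) * x - a - γ q| < ψ q} := by
  have h := Vale.Agent.Lib.P028.rogers_union L hL B (fun q => q)
    (fun q => (γ q : UnitAddCircle)) ψ hB (fun a _ b _ hab => hab)
  set U : Set UnitAddCircle :=
    ⋃ q ∈ B, Vale.Agent.Lib.P028.arcs q (γ q : UnitAddCircle) (ψ q) with hU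
  have hUm : MeasurableSet U := Vale.Agent.Lib.P028.measurableSet_biUnion_arcs _ _ _ _
  have h1 : volume U = volume ((QuotientAddGroup.mk ⁻¹' U : Set ℝ) ∩ Ioc (0 : ℝ) (0 + 1)) :=
    AddCircle.add_projection_respects_measure 1 0 hUm
  have h2 : ENNReal.ofReal (2 * ∑ q ∈ B, (Nat.totient q : ℝ) * ψ q / q) ≤ volume U := by
    rw [← ofReal_measureReal (measure_ne_top _ _)]
    apply ENNReal.ofReal_le_ofReal
    refine le_trans (le_of_eq ?_) h
    rw [Finset.mul_sum]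
    apply Finset.sum_congr rfl
    intro q _
    ring
  refine le_trans h2 ?_
  rw [h1]
  apply measure_mono
  rintro x ⟨hxU, hx⟩
  rw [zero_add] at hx
  refine ⟨hx, ?_⟩
  obtain ⟨q, hq, hxq⟩ := Set.mem_iUnion₂.mp hxU
  refine ⟨q, hq, round ((q : ℝ) * x - γ q), ?_⟩
  simp only [Vale.Agent.Lib.P028.arcs, mem_ofPred_eq] at hxq
  have e : q • (x : UnitAddCircle) - (γ q : UnitAddCircle) =
      (((q : ℝ) * x - γ q : ℝ) : UnitAddCircle) := by
    rw [AddCircle.coe_sub, ← nsmul_eq_mul, AddCircle.coe_nsmul]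
  have hxq' : ‖q • (x : UnitAddCircle) - (γ q : UnitAddCircle)‖ < ψ q := hxq
  rw [e, UnitAddCircle.norm_eq] at hxq'
  have e2 : (q : ℝ) * x - (round ((q : ℝ) * x - γ q) : ℝ) - γ q =
      (q : ℝ) * x - γ q - (round ((q : ℝ) * x - γ q) : ℝ) := by ring
  rw [e2]
  exact hxq'

end Vale.Agent.Results.P028.BlockUnion
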