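import Mathlib
import Vale.Agent.Lib.P028.Master
open MeasureTheory Set Filter

namespace Vale.Agent.Results.P028.BoundedGcd

/-- If any two distinct elements of the support of `ψ ≥ 0` have gcd at most `K` (for instance `ψ`
supported on the primes, `K = 1`), then for every real shift `γ` divergence of
`∑ φ(q) ψ(q) / q` implies that `W_γ(ψ)` has full Lebesgue measure; indeed divergence of
`∑ ψ(q)` suffices, and the shift may vary with `q`. -/
theorem result (ψ : ℕ → ℝ) (hψ : ∀ q, 0 ≤ ψ q) (K : ℕ)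
    (hK : ∀ q r : ℕ, 0 < q → q < r → 0 < ψ q → 0 < ψ r → Nat.gcd q r ≤ K) :
    (¬ Summable ψ → ∀ γ : ℕ → ℝ,
      volume {x : ℝ | {q : ℕ | 0 < q ∧ ∃ a : ℤ, |(q : ℝ) * x - a - γ q| < ψ q}.Infinite}ᶜ = 0) ∧
    (¬ Summable (fun q : ℕ => (Nat.totient q : ℝ) / q * ψ q) → ∀ γ : ℝ,
      volume {x : ℝ | {q : ℕ | 0 < q ∧ ∃ a : ℤ, |(q : ℝ) * x - a - γ| < ψ q}.Infinite}ᶜ = 0) := by
  have main : ¬ Summable ψ → ∀ γ : ℕ → ℝ,
      volume {x : ℝ | {q : ℕ | 0 < q ∧ ∃ a : ℤ, |(q : ℝ) * x - a - γ q| < ψ q}.Infinite}ᶜ = 0 := by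
    intro hdiv γ
    set C : ℝ := max 1 (K : ℝ) with hC
    have hC1 : 1 ≤ C := le_max_left _ _
    refine Vale.Agent.Lib.P028.master ψ (fun _ => C) hψ (fun _ => hC1) ?_ ?_ γ
    · intro r hr
      calc ∑ q ∈ (Finset.Ioo 0 r).filter (fun q => 0 < ψ q), (Nat.gcd q r : ℝ)
          ≤ ∑ q ∈ (Finset.Ioo 0 r).filter (fun q => 0 < ψ q), C := by
            apply Finset.sum_le_sum
            intro q hq
            simp only [Finset.mem_filter, Finset.mem_Ioo] at hq
            have : (Nat.gcd q r : ℝ) ≤ (K : ℝ) := by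
              exact_mod_cast hK q r hq.1.1 hq.1.2 hq.2 hr
            exact le_trans this (le_max_right _ _)
        _ = (((Finset.Ioo 0 r).filter (fun q => 0 < ψ q)).card : ℝ) * C := by
            rw [Finset.sum_const, nsmul_eq_mul]
        _ ≤ (r : ℝ) * C := by
            apply mul_le_mul_of_nonneg_right _ (by linarith)
            have h1 : ((Finset.Ioo 0 r).filter (fun q => 0 < ψ q)).card ≤ (Finset.Ioo 0 r).card :=
              Finset.card_filter_le _ _
            have h2 : (Finset.Ioo 0 r).card ≤ r := by simp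
            exact_mod_cast le_trans h1 h2
        _ = C * r := mul_comm _ _
    · intro hs
      apply hdiv
      have hne : C * (1 + Real.logb 2 C) ^ 2 ≠ 0 := by
        have : 0 ≤ Real.logb 2 C := Real.logb_nonneg (by norm_num) hC1
        positivity
      have := hs.mul_left (C * (1 + Real.logb 2 C) ^ 2)
      refine this.congr ?_
      intro q
      rw [mul_div_cancel₀ _ hne]
  refine ⟨main, ?_⟩
  intro hdiv γ
  refine main ?_ (fun _ => γ)
  intro hs
  apply hdiv
  refine Summable.of_nonneg_of_le (fun q => by have := hψ q; positivity) ?_ hs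
  intro q
  have h1 : (Nat.totient q : ℝ) / q ≤ 1 := by
    apply div_le_one_of_le₀ _ (by positivity)
    exact_mod_cast Nat.totient_le q
  calc (Nat.totient q : ℝ) / q * ψ q ≤ 1 * ψ q := mul_le_mul_of_nonneg_right h1 (hψ q)
    _ = ψ q := one_mul _

end Vale.Agent.Results.P028.BoundedGcd
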