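import Mathlib
import Vale.Agent.Lib.P028.Master
import Vale.Agent.Results.P028.BlockUnion
import Vale.Agent.Results.P028.BoundedGcd
open MeasureTheory Set Filter

namespace Vale.Agent.Results.P028.Combined

/-- Divisor-weight consequence of the master theorem. -/
theorem divisorWeight (ψ : ℕ → ℝ) (hψ : ∀ q, 0 ≤ ψ q)
    (hdiv : ¬ Summable (fun q : ℕ =>
      ψ q / ((q.divisors.card : ℝ) * (1 + Real.logb 2 (q.divisors.card : ℝ)) ^ 2)))
    (γ : ℕ → ℝ) :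
    volume {x : ℝ | {q : ℕ | 0 < q ∧ ∃ a : ℤ, |(q : ℝ) * x - a - γ q| < ψ q}.Infinite}ᶜ = 0 := by
  have key := Vale.Agent.Lib.P028.master ψ (fun q => max 1 (q.divisors.card : ℝ)) hψ
    (fun q => le_max_left _ _) ?_ ?_ γ
  · exact key
  · intro r hr
    rcases Nat.eq_zero_or_pos r with h0 | hpos
    · subst h0; simp
    · calc ∑ q ∈ (Finset.Ioo 0 r).filter (fun q => 0 < ψ q), (Nat.gcd q r : ℝ)
          ≤ ∑ q ∈ Finset.Ioo 0 r, (Nat.gcd q r : ℝ) :=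
            Finset.sum_le_sum_of_subset_of_nonneg (Finset.filter_subset _ _)
              (fun _ _ _ => by positivity)
        _ ≤ (r.divisors.card : ℝ) * r := Vale.Agent.Lib.P028.gcd_sum_le r hpos
        _ ≤ max 1 (r.divisors.card : ℝ) * r :=
            mul_le_mul_of_nonneg_right (le_max_right _ _) (by positivity)
  · intro hs
    apply hdiv
    refine hs.congr_atTop ?_
    filter_upwards [eventually_gt_atTop 0] with q hq
    have h1 : (1 : ℝ) ≤ (q.divisors.card : ℝ) := by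
      have : 0 < q.divisors.card := Finset.card_pos.mpr ⟨1, Nat.one_mem_divisors.mpr hq.ne'⟩
      exact_mod_cast this
    rw [max_eq_right h1]

/-- Four results on the weak inhomogeneous Duffin-Schaeffer problem, valid for every real shift.
(1) master theorem with gcd-sum weights; (2) divergence with the divisor weight
`1 / (τ (1 + log₂ τ)²)` suffices for every `ψ`; (3) the implication of Q1 for supports with bounded
pairwise gcds; (4) the union of a block of divisors of `L` at scale `q / L` has measure at least the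
`φ`-weighted sum, whatever the shifts. -/
theorem result :
    (∀ ψ g : ℕ → ℝ, (∀ q, 0 ≤ ψ q) → (∀ q, 1 ≤ g q) →
      (∀ r, 0 < ψ r →
        ∑ q ∈ (Finset.Ioo 0 r).filter (fun q => 0 < ψ q), (Nat.gcd q r : ℝ) ≤ g r * r) →
      ¬ Summable (fun q => ψ q / (g q * (1 + Real.logb 2 (g q)) ^ 2)) → ∀ γ : ℕ → ℝ,
      volume {x : ℝ | {q : ℕ | 0 < q ∧ ∃ a : ℤ, |(q : ℝ) * x - a - γ q| < ψ q}.Infinite}ᶜ = 0) ∧
    (∀ ψ : ℕ → ℝ, (∀ q, 0 ≤ ψ q) →
      ¬ Summable (fun q : ℕ =>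
        ψ q / ((q.divisors.card : ℝ) * (1 + Real.logb 2 (q.divisors.card : ℝ)) ^ 2)) →
      ∀ γ : ℕ → ℝ,
      volume {x : ℝ | {q : ℕ | 0 < q ∧ ∃ a : ℤ, |(q : ℝ) * x - a - γ q| < ψ q}.Infinite}ᶜ = 0) ∧
    (∀ ψ : ℕ → ℝ, (∀ q, 0 ≤ ψ q) → ∀ K : ℕ,
      (∀ q r : ℕ, 0 < q → q < r → 0 < ψ q → 0 < ψ r → Nat.gcd q r ≤ K) →
      ¬ Summable (fun q : ℕ => (Nat.totient q : ℝ) / q * ψ q) → ∀ γ : ℝ,
      volume {x : ℝ | {q : ℕ | 0 < q ∧ ∃ a : ℤ, |(q : ℝ) * x - a - γ| < ψ q}.Infinite}ᶜ = 0) ∧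
    (∀ (B : Finset ℕ) (L : ℕ), 0 < L → ∀ ψ γ : ℕ → ℝ,
      (∀ q ∈ B, 0 < q ∧ q ∣ L ∧ 0 ≤ ψ q ∧ ψ q * (2 * L) ≤ q) →
      ENNReal.ofReal (2 * ∑ q ∈ B, (Nat.totient q : ℝ) * ψ q / q) ≤
        volume {x : ℝ | x ∈ Ioc (0 : ℝ) 1 ∧ ∃ q ∈ B, ∃ a : ℤ, |(q : ℝ) * x - a - γ q| < ψ q}) :=
  ⟨fun ψ g hψ hg1 hg hdiv γ => Vale.Agent.Lib.P028.master ψ g hψ hg1 hg hdiv γ,
   fun ψ hψ hdiv γ => divisorWeight ψ hψ hdiv γ,
   fun ψ hψ K hK hdiv γ => (Vale.Agent.Results.P028.BoundedGcd.result ψ hψ K hK).2 hdiv γ,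
   fun B L hL ψ γ hB => Vale.Agent.Results.P028.BlockUnion.result B L hL ψ γ hB⟩

end Vale.Agent.Results.P028.Combined
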