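import Mathlib
import Vale.Agent.Lib.P028.Master
open MeasureTheory Set Filter

namespace Vale.Agent.Results.P028.GcdSumMaster

/-- Master theorem.  Let `ψ ≥ 0` and let `g ≥ 1` majorise the normalised gcd-sums of the support
of `ψ`: `∑_{0 < q < r, ψ q > 0} gcd(q, r) ≤ g(r) r` whenever `ψ r > 0`.  If
`∑ ψ(q) / (g(q) (1 + log₂ g(q))²)` diverges then, for every sequence of shifts `γ q`, almost every
real `x` satisfies `|q x - a - γ q| < ψ q` for infinitely many `q`. -/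
theorem result (ψ g : ℕ → ℝ) (hψ : ∀ q, 0 ≤ ψ q) (hg1 : ∀ q, 1 ≤ g q)
    (hg : ∀ r, 0 < ψ r →
      ∑ q ∈ (Finset.Ioo 0 r).filter (fun q => 0 < ψ q), (Nat.gcd q r : ℝ) ≤ g r * r)
    (hdiv : ¬ Summable (fun q => ψ q / (g q * (1 + Real.logb 2 (g q)) ^ 2))) (γ : ℕ → ℝ) :
    volume {x : ℝ | {q : ℕ | 0 < q ∧ ∃ a : ℤ, |(q : ℝ) * x - a - γ q| < ψ q}.Infinite}ᶜ = 0 :=
  Vale.Agent.Lib.P028.master ψ g hψ hg1 hg hdiv γ

end Vale.Agent.Results.P028.GcdSumMaster
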